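import Vale.Agent.P183.R2.H668.KW.Spec

set_option autoImplicit false

/-!
Row A2 of the Kleitman-Winston count (helper768).
-/

namespace Vale.Agent.P183.R2.H768

open Finset Vale.Agent.P183.R2.H668.KW

theorem rowA2 : StA2 := by
  intro V _ _ G _ hC T hT δ hδ hdeg B hBT h2 hBne
  obtain ⟨g, hg⟩ : ∃ g : V → ℕ, ∀ w, g w = (B.filter (fun y => G.Adj w y)).card :=
    ⟨_, fun _ => rfl⟩
  -- the local count
  have key1 : ∀ x ∈ B, ∑ w ∈ T.filter (fun w => G.Adj w x), (g w - 1) ≤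
      (B.filter (fun y => x ≠ y ∧ ∃ w, G.Adj w x ∧ G.Adj w y)).card := by
    intro x hx
    have h1 : ∀ w ∈ T.filter (fun w => G.Adj w x), g w - 1 =
        ((B.filter (fun y => G.Adj w y)).erase x).card := by
      intro w hw
      rw [Finset.card_erase_of_mem (Finset.mem_filter.2 ⟨hx, (Finset.mem_filter.1 hw).2⟩), hg]
    rw [Finset.sum_congr rfl h1, ← Finset.card_biUnion]
    · refine Finset.card_le_card fun y hy => ?_
      obtain ⟨w, hw, hy⟩ := Finset.mem_biUnion.1 hy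
      have hyx := Finset.ne_of_mem_erase hy
      have hyB := Finset.mem_filter.1 (Finset.mem_of_mem_erase hy)
      exact Finset.mem_filter.2 ⟨hyB.1, hyx.symm, w, (Finset.mem_filter.1 hw).2, hyB.2⟩
    · intro w hw w' hw' hww
      have hwx : G.Adj w x := (Finset.mem_filter.1 hw).2
      have hwx' : G.Adj w' x := (Finset.mem_filter.1 hw').2
      rw [Function.onFun, Finset.disjoint_left]
      intro y hy hy'
      have hyx := Finset.ne_of_mem_erase hy
      have hyB := (Finset.mem_filter.1 (Finset.mem_of_mem_erase hy)).2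
      have hyB' := (Finset.mem_filter.1 (Finset.mem_of_mem_erase hy')).2
      exact hyx (hC w w' x y hww hwx hwx' hyB hyB').symm
  have key2 : ∑ x ∈ B, ∑ w ∈ T.filter (fun w => G.Adj w x), (g w - 1) =
      ∑ w ∈ T, g w * (g w - 1) := by
    simp only [Finset.sum_filter]
    rw [Finset.sum_comm]
    refine Finset.sum_congr rfl fun w _ => ?_
    rw [← Finset.sum_filter, Finset.sum_const, smul_eq_mul, hg]
  have key3 : δ * B.card ≤ ∑ w ∈ T, g w := by
    have h3 : ∑ w ∈ T, g w = ∑ x ∈ B, (T.filter (fun w => G.Adj w x)).card := by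
      simp only [hg, Finset.card_filter]
      exact Finset.sum_comm
    rw [h3, mul_comm, ← smul_eq_mul, ← Finset.sum_const]
    refine Finset.sum_le_sum fun x hx => (hdeg x (hBT hx)).trans (Finset.card_le_card ?_)
    intro y hy
    have := (Finset.mem_filter.1 hy).2
    exact Finset.mem_filter.2 ⟨hT y x this.symm, this.symm⟩
  -- real numbers
  have ht : (0 : ℝ) < T.card := by
    obtain ⟨x, hx⟩ := hBne
    exact_mod_cast Finset.card_pos.2 ⟨x, hBT hx⟩
  obtain ⟨S, hS⟩ : ∃ S : ℝ, S = ∑ w ∈ T, (g w : ℝ) := ⟨_, rfl⟩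
  have hS1 : (δ : ℝ) * B.card ≤ S := by
    rw [hS]
    exact_mod_cast key3
  have hS2 : 2 * (T.card : ℝ) ≤ S := by
    refine le_trans ?_ hS1
    exact_mod_cast h2
  have hCS : S ^ 2 ≤ T.card * ∑ w ∈ T, (g w : ℝ) ^ 2 := by
    rw [hS]
    exact sq_sum_le_card_mul_sum_sq
  have hcast : ((∑ w ∈ T, g w * (g w - 1) : ℕ) : ℝ) = ∑ w ∈ T, (g w : ℝ) ^ 2 - S := by
    rw [hS, ← Finset.sum_sub_distrib]
    push_cast
    refine Finset.sum_congr rfl fun w _ => ?_
    rcases Nat.eq_zero_or_pos (g w) with h0 | h0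
    · simp [h0]
    · rw [Nat.cast_sub h0]
      push_cast
      ring
  have htot : (δ : ℝ) ^ 2 / (2 * T.card) * B.card * B.card ≤
      ((∑ w ∈ T, g w * (g w - 1) : ℕ) : ℝ) := by
    rw [hcast]
    have h4 : S ^ 2 / T.card ≤ ∑ w ∈ T, (g w : ℝ) ^ 2 := by
      rw [div_le_iff₀ ht]
      linarith [mul_comm (T.card : ℝ) (∑ w ∈ T, (g w : ℝ) ^ 2)]
    have h5 : S ≤ S ^ 2 / (2 * T.card) := by
      rw [le_div_iff₀ (by positivity), sq]
      exact mul_le_mul_of_nonneg_left hS2 (by linarith)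
    have h6 : S ^ 2 / T.card = S ^ 2 / (2 * T.card) + S ^ 2 / (2 * T.card) := by
      field_simp
      ring
    have h7 : (δ : ℝ) ^ 2 / (2 * T.card) * B.card * B.card ≤ S ^ 2 / (2 * T.card) := by
      have h8 : ((δ : ℝ) * B.card) ^ 2 ≤ S ^ 2 := pow_le_pow_left₀ (by positivity) hS1 2
      have h9 : (δ : ℝ) ^ 2 / (2 * T.card) * B.card * B.card =
          ((δ : ℝ) * B.card) ^ 2 / (2 * T.card) := by
        field_simp
      rw [h9]
      exact div_le_div_of_nonneg_right h8 (by positivity)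
    linarith
  by_contra hcon
  push Not at hcon
  have h10 : ((∑ x ∈ B, ∑ w ∈ T.filter (fun w => G.Adj w x), (g w - 1) : ℕ) : ℝ) ≤
      ∑ x ∈ B, ((B.filter (fun y => x ≠ y ∧ ∃ w, G.Adj w x ∧ G.Adj w y)).card : ℝ) := by
    exact_mod_cast Finset.sum_le_sum key1
  have h11 : ∑ x ∈ B, ((B.filter (fun y => x ≠ y ∧ ∃ w, G.Adj w x ∧ G.Adj w y)).card : ℝ) <
      ∑ _x ∈ B, (δ : ℝ) ^ 2 / (2 * T.card) * B.card :=
    Finset.sum_lt_sum_of_nonempty hBne hcon
  rw [Finset.sum_const, nsmul_eq_mul] at h11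
  rw [key2] at h10
  have : (B.card : ℝ) * ((δ : ℝ) ^ 2 / (2 * T.card) * B.card) =
      (δ : ℝ) ^ 2 / (2 * T.card) * B.card * B.card := by ring
  linarith

end Vale.Agent.P183.R2.H768
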